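import Vale.Agent.Lib.P254.Defs

namespace Vale.Agent.Lib.P254

open MeasureTheory Matrix

variable {n : ℕ}

/-- affine change of variables for set integrals -/
lemma setIntegral_image_affine (M : Matrix (Fin n) (Fin n) ℝ) (b : Fin n → ℝ) (hM : M.det ≠ 0)
    {K : Set (Fin n → ℝ)} (hK : MeasurableSet K) (g : (Fin n → ℝ) → ℝ) :
    ∫ y in (fun x => M *ᵥ x + b) '' K, g y = |M.det| * ∫ x in K, g (M *ᵥ x + b) := by
  have hinj : Function.Injective (fun x : Fin n → ℝ => M *ᵥ x + b) := by
    intro x y hxy
    have h1 : M *ᵥ x = M *ᵥ y := by simpa using hxy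
    exact (Matrix.mulVec_injective_iff_isUnit.mpr ((Matrix.isUnit_iff_isUnit_det M).mpr (isUnit_iff_ne_zero.mpr hM))) h1
  have h := integral_image_eq_integral_abs_det_fderiv_smul (μ := (volume : Measure (Fin n → ℝ))) (s := K)
     (f := fun x => M *ᵥ x + b) (f' := fun _ => LinearMap.toContinuousLinearMap (Matrix.toLin' M)) hK
     (fun x _ => by
        have := ((LinearMap.toContinuousLinearMap (Matrix.toLin' M)).hasFDerivAt (x := x)).add_const b
        exact this.hasFDerivWithinAt)
     hinj.injOn g
  rw [h]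
  simp only [LinearMap.det_toContinuousLinearMap, LinearMap.det_toLin', smul_eq_mul]
  rw [integral_const_mul]

lemma vol_eq_integral (K : Set (Fin n → ℝ)) : vol K = ∫ _x in K, (1 : ℝ) := by
  simp [vol, Measure.real]

lemma vol_image_affine (M : Matrix (Fin n) (Fin n) ℝ) (b : Fin n → ℝ) (hM : M.det ≠ 0)
    {K : Set (Fin n → ℝ)} (hK : MeasurableSet K) :
    vol ((fun x => M *ᵥ x + b) '' K) = |M.det| * vol K := by
  rw [vol_eq_integral, vol_eq_integral, setIntegral_image_affine M b hM hK]

lemma integrableOn_of_continuous {K : Set (Fin n → ℝ)} (hK : IsCompact K)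
    {g : (Fin n → ℝ) → ℝ} (hg : Continuous g) : IntegrableOn g K volume :=
  hg.continuousOn.integrableOn_compact hK

lemma centroid_image_affine (M : Matrix (Fin n) (Fin n) ℝ) (b : Fin n → ℝ) (hM : M.det ≠ 0)
    {K : Set (Fin n → ℝ)} (hK : IsCompact K) (hv : vol K ≠ 0) :
    centroid ((fun x => M *ᵥ x + b) '' K) = M *ᵥ centroid K + b := by
  funext i
  have hdet : |M.det| ≠ 0 := abs_ne_zero.mpr hM
  simp only [centroid]
  rw [vol_image_affine M b hM hK.measurableSet, setIntegral_image_affine M b hM hK.measurableSet]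
  have h1 : ∫ x in K, (M *ᵥ x + b) i = (∑ a, M i a * (∫ x in K, x a)) + b i * vol K := by
    have : ∀ x : Fin n → ℝ, (M *ᵥ x + b) i = (∑ a, M i a * x a) + b i * 1 := by
      intro x; simp [Matrix.mulVec, dotProduct]
    simp_rw [this]
    rw [integral_add, integral_finsetSum, integral_const_mul, ← vol_eq_integral]
    · congr 1
      refine Finset.sum_congr rfl fun a _ => ?_
      rw [integral_const_mul]
    · intro a _
      exact integrableOn_of_continuous hK (by fun_prop)
    · exact integrableOn_of_continuous hK (by fun_prop)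
    · exact integrableOn_of_continuous hK (by fun_prop)
  rw [h1]
  simp only [Pi.add_apply, Matrix.mulVec, dotProduct, centroid]
  have h2 : ∀ a, M i a * ((vol K)⁻¹ * ∫ x in K, x a) = (vol K)⁻¹ * (M i a * ∫ x in K, x a) := by
    intro a; ring
  simp_rw [h2]
  rw [← Finset.mul_sum]
  field_simp

lemma covMatrix_image_affine (M : Matrix (Fin n) (Fin n) ℝ) (b : Fin n → ℝ) (hM : M.det ≠ 0)
    {K : Set (Fin n → ℝ)} (hK : IsCompact K) (hv : vol K ≠ 0) :
    covMatrix ((fun x => M *ᵥ x + b) '' K) = M * covMatrix K * Mᵀ := by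
  ext i j
  have hdet : |M.det| ≠ 0 := abs_ne_zero.mpr hM
  simp only [covMatrix, Matrix.of_apply]
  rw [centroid_image_affine M b hM hK hv, vol_image_affine M b hM hK.measurableSet,
    setIntegral_image_affine M b hM hK.measurableSet]
  set c := centroid K with hc
  have h1 : ∀ x : Fin n → ℝ, ((M *ᵥ x + b) i - (M *ᵥ c + b) i) * ((M *ᵥ x + b) j - (M *ᵥ c + b) j)
      = ∑ a, ∑ d, M i a * M j d * ((x a - c a) * (x d - c d)) := by
    intro x
    have e1 : ∀ k, (M *ᵥ x + b) k - (M *ᵥ c + b) k = ∑ a, M k a * (x a - c a) := by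
      intro k
      simp only [Pi.add_apply, Matrix.mulVec, dotProduct]
      rw [add_sub_add_right_eq_sub, ← Finset.sum_sub_distrib]
      refine Finset.sum_congr rfl fun a _ => by ring
    rw [e1, e1, Finset.sum_mul_sum]
    refine Finset.sum_congr rfl fun a _ => Finset.sum_congr rfl fun d _ => by ring
  simp_rw [h1]
  rw [integral_finsetSum]
  · have h2 : ∀ a, ∫ x in K, ∑ d, M i a * M j d * ((x a - c a) * (x d - c d))
        = ∑ d, M i a * M j d * ∫ x in K, ((x a - c a) * (x d - c d)) := by
      intro a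
      rw [integral_finsetSum]
      · refine Finset.sum_congr rfl fun d _ => ?_
        rw [integral_const_mul]
      · intro d _
        exact integrableOn_of_continuous hK (by fun_prop)
    simp_rw [h2]
    simp only [Matrix.mul_apply, Matrix.transpose_apply, Matrix.of_apply, Finset.sum_mul, Finset.mul_sum]
    rw [Finset.sum_comm]
    refine Finset.sum_congr rfl fun a _ => Finset.sum_congr rfl fun d _ => ?_
    field_simp
  · intro a _
    exact integrableOn_of_continuous hK (by fun_prop)

/-- the affine invariant `det Σ_K / |K|^2` -/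
noncomputable def qf (K : Set (Fin n → ℝ)) : ℝ := (covMatrix K).det / (vol K) ^ 2

lemma isoConst_eq (K : Set (Fin n → ℝ)) : isoConst K = (qf K) ^ (1 / (2 * (n : ℝ))) := rfl

lemma qf_image_affine (M : Matrix (Fin n) (Fin n) ℝ) (b : Fin n → ℝ) (hM : M.det ≠ 0)
    {K : Set (Fin n → ℝ)} (hK : IsCompact K) (hv : vol K ≠ 0) :
    qf ((fun x => M *ᵥ x + b) '' K) = qf K := by
  simp only [qf]
  rw [covMatrix_image_affine M b hM hK hv, vol_image_affine M b hM hK.measurableSet,
    Matrix.det_mul, Matrix.det_mul, Matrix.det_transpose, mul_pow, sq_abs]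
  field_simp

end Vale.Agent.Lib.P254
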