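import Vale.Agent.Lib.P254.Simplex2

namespace Vale.Agent.Lib.P254

open MeasureTheory Matrix

variable {n : ℕ}

/-- the linear map fixing `e_j` (`j ≠ k`) and sending `e_k` to `v` -/
noncomputable def repl (v : Fin n → ℝ) (k : Fin n) (x : Fin n → ℝ) : Fin n → ℝ :=
  x + x k • (v - Pi.single k 1)

/-- the simplex with vertices `0`, `e_j` (`j ≠ k`) and `v` -/
def piece (v : Fin n → ℝ) (k : Fin n) : Set (Fin n → ℝ) := repl v k '' stdS n

/-- the convex hull of the standard simplex and one more point -/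
def hullV (v : Fin n → ℝ) : Set (Fin n → ℝ) := convexHull ℝ (insert v (stdS n))

lemma sum_single_one (k : Fin n) : ∑ j, (Pi.single k 1 : Fin n → ℝ) j = 1 := by simp

lemma zero_mem_stdS : (0 : Fin n → ℝ) ∈ stdS n := by
  refine ⟨fun i => le_refl _, ?_⟩
  simp

lemma mem_hullV_iff (v x : Fin n → ℝ) : x ∈ hullV v ↔
    ∃ (τ : ℝ) (w : Fin n → ℝ), 0 ≤ τ ∧ (∀ k, 0 ≤ w k) ∧ ∑ k, w k + τ ≤ 1 ∧ x = w + τ • v := by
  have hne : (stdS n).Nonempty := ⟨0, zero_mem_stdS⟩
  rw [hullV, convexHull_insert hne, stdS_convex.convexHull_eq, mem_convexJoin]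
  constructor
  · rintro ⟨a, ha, y, hy, ⟨s, t, hs, ht, hst, rfl⟩⟩
    rw [Set.mem_singleton_iff] at ha; subst ha
    refine ⟨s, t • y, hs, fun k => mul_nonneg ht (hy.1 k), ?_, by rw [add_comm]⟩
    simp only [Pi.smul_apply, smul_eq_mul, ← Finset.mul_sum]
    nlinarith [hy.2]
  · rintro ⟨τ, w, hτ, hw, hsum, rfl⟩
    refine ⟨v, rfl, ?_⟩
    have hsw : 0 ≤ ∑ k, w k := Finset.sum_nonneg fun k _ => hw k
    by_cases h1 : τ = 1
    · have hs0 : ∑ k, w k = 0 := by linarith
      have hw0 : w = 0 := by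
        funext k
        exact (Finset.sum_eq_zero_iff_of_nonneg (fun k _ => hw k)).mp hs0 k (Finset.mem_univ k)
      refine ⟨0, zero_mem_stdS, ⟨1, 0, by norm_num, le_refl _, by norm_num, ?_⟩⟩
      rw [hw0, h1]; simp
    · have hlt : 0 < 1 - τ := by
        rcases lt_or_eq_of_le (show τ ≤ 1 by linarith) with h | h
        · linarith
        · exact absurd h h1
      refine ⟨(1 - τ)⁻¹ • w, ⟨fun k => ?_, ?_⟩, ⟨τ, 1 - τ, hτ, hlt.le, by ring, ?_⟩⟩
      · exact mul_nonneg (by positivity) (hw k)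
      · simp only [Pi.smul_apply, smul_eq_mul, ← Finset.mul_sum]
        rw [inv_mul_le_iff₀ hlt]; linarith
      · rw [smul_smul, mul_inv_cancel₀ hlt.ne', one_smul, add_comm]

lemma repl_apply_self (v : Fin n → ℝ) (k : Fin n) (x : Fin n → ℝ) : repl v k x k = x k * v k := by
  simp [repl]; ring

lemma repl_apply_ne (v : Fin n → ℝ) (k : Fin n) (x : Fin n → ℝ) {j : Fin n} (hj : j ≠ k) :
    repl v k x j = x j + x k * v j := by
  simp [repl, Pi.single_eq_of_ne hj]

lemma repl_apply (v : Fin n → ℝ) (k : Fin n) (x : Fin n → ℝ) (j : Fin n) :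
    repl v k x j = x j + x k * (v j - if j = k then 1 else 0) := by
  simp [repl, Pi.single_apply]

lemma stdS_subset_hullV (v : Fin n → ℝ) : stdS n ⊆ hullV v :=
  (Set.subset_insert _ _).trans (subset_convexHull ℝ _)

lemma piece_subset_hullV (v : Fin n → ℝ) (k : Fin n) : piece v k ⊆ hullV v := by
  rintro _ ⟨y, hy, rfl⟩
  rw [mem_hullV_iff]
  refine ⟨y k, y - y k • Pi.single k 1, hy.1 k, fun j => ?_, ?_, ?_⟩
  · by_cases hj : j = k
    · subst hj; simp
    · simp [Pi.single_eq_of_ne hj]; exact hy.1 j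
  · simp only [Pi.sub_apply, Pi.smul_apply, smul_eq_mul, Finset.sum_sub_distrib, ← Finset.mul_sum,
      sum_single_one]
    linarith [hy.2]
  · simp only [repl, smul_sub]; abel

lemma hullV_subset (v : Fin n → ℝ) (hv : ∑ k, v k < 1) :
    hullV v ⊆ stdS n ∪ ⋃ k, (if v k < 0 then piece v k else ∅) := by
  intro x hx
  rw [mem_hullV_iff] at hx
  obtain ⟨τ, w, hτ, hw, hsum, rfl⟩ := hx
  have hsumx : ∑ k, (w + τ • v) k ≤ 1 := by
    simp only [Pi.add_apply, Pi.smul_apply, smul_eq_mul, Finset.sum_add_distrib, ← Finset.mul_sum]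
    nlinarith
  by_cases hall : ∀ k, 0 ≤ (w + τ • v) k
  · exact Or.inl ⟨hall, hsumx⟩
  · right
    push Not at hall
    obtain ⟨k0, hk0⟩ := hall
    have hvk0 : v k0 < 0 := by
      by_contra h
      push Not at h
      have : 0 ≤ (w + τ • v) k0 := by
        simp only [Pi.add_apply, Pi.smul_apply, smul_eq_mul]
        have := hw k0
        positivity
      linarith
    obtain ⟨k, hk, hmax⟩ := Finset.exists_max_image (Finset.univ.filter fun k => v k < 0)
      (fun k => (w + τ • v) k / v k) ⟨k0, by simp [hvk0]⟩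
    have hvk : v k < 0 := by simpa using hk
    set x := w + τ • v with hx
    set τ' := x k / v k with hτ'
    have hxk : x k = τ' * v k := by rw [hτ', div_mul_cancel₀ _ hvk.ne]
    have hτ'le : τ' ≤ τ := by
      rw [hτ', div_le_iff_of_neg hvk]
      simp only [hx, Pi.add_apply, Pi.smul_apply, smul_eq_mul]
      linarith [hw k]
    have hτ'pos : 0 ≤ τ' := by
      have h1 := hmax k0 (by simp [hvk0])
      have h2 : 0 < x k0 / v k0 := div_pos_of_neg_of_neg hk0 hvk0
      linarith
    rw [Set.mem_iUnion]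
    refine ⟨k, ?_⟩
    rw [if_pos hvk]
    refine ⟨x - τ' • v + τ' • Pi.single k 1, ⟨fun j => ?_, ?_⟩, ?_⟩
    · by_cases hj : j = k
      · subst hj
        simp only [Pi.add_apply, Pi.sub_apply, Pi.smul_apply, smul_eq_mul, Pi.single_eq_same]
        rw [hxk]; linarith
      · simp only [Pi.add_apply, Pi.sub_apply, Pi.smul_apply, smul_eq_mul, Pi.single_eq_of_ne hj,
          mul_zero, add_zero]
        by_cases hvj : v j < 0
        · have h1 := hmax j (by simp [hvj])
          have h1' : x j / v j ≤ τ' := h1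
          rw [div_le_iff_of_neg hvj] at h1'
          linarith
        · push Not at hvj
          have : x j = w j + τ * v j := by simp [hx]
          rw [this]
          have := hw j
          nlinarith
    · simp only [Pi.add_apply, Pi.sub_apply, Pi.smul_apply, smul_eq_mul, Finset.sum_add_distrib,
        Finset.sum_sub_distrib, ← Finset.mul_sum, sum_single_one]
      have : ∑ j, x j = ∑ j, w j + τ * ∑ j, v j := by
        simp [hx, Finset.sum_add_distrib, ← Finset.mul_sum]
      rw [this]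
      nlinarith
    · have hyk : (x - τ' • v + τ' • (Pi.single k 1 : Fin n → ℝ)) k = τ' := by
        simp only [Pi.add_apply, Pi.sub_apply, Pi.smul_apply, smul_eq_mul, Pi.single_eq_same]
        rw [hxk]; ring
      simp only [repl, hyk, smul_sub]
      abel

lemma hullV_eq (v : Fin n → ℝ) (hv : ∑ k, v k < 1) :
    hullV v = stdS n ∪ ⋃ k, (if v k < 0 then piece v k else ∅) := by
  apply Set.Subset.antisymm (hullV_subset v hv)
  apply Set.union_subset (stdS_subset_hullV v)
  apply Set.iUnion_subset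
  intro k
  split_ifs
  · exact piece_subset_hullV v k
  · exact Set.empty_subset _

end Vale.Agent.Lib.P254
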