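import Vale.Agent.Lib.P254.Decomp

namespace Vale.Agent.Lib.P254

open MeasureTheory Matrix

variable {n : ℕ}

lemma volume_hyperplane_zero (c : Fin n → ℝ) (hc : c ≠ 0) :
    volume {x : Fin n → ℝ | c ⬝ᵥ x = 0} = 0 := by
  let f : (Fin n → ℝ) →ₗ[ℝ] ℝ :=
    { toFun := fun x => c ⬝ᵥ x
      map_add' := fun x y => dotProduct_add c x y
      map_smul' := fun r x => by simp [dotProduct_smul] }
  have h1 : {x : Fin n → ℝ | c ⬝ᵥ x = 0} = (LinearMap.ker f : Set (Fin n → ℝ)) := by
    ext x; simp [f]
  rw [h1]
  apply Measure.addHaar_submodule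
  intro htop
  have h2 : c ∈ LinearMap.ker f := by rw [htop]; trivial
  have h3 : c ⬝ᵥ c = 0 := by simpa [f] using h2
  exact hc (dotProduct_self_eq_zero.mp h3)

lemma repl_continuous (v : Fin n → ℝ) (k : Fin n) : Continuous (repl v k) := by
  unfold repl; fun_prop

lemma piece_isCompact (v : Fin n → ℝ) (k : Fin n) : IsCompact (piece v k) :=
  stdS_isCompact.image (repl_continuous v k)

/-- the pieces of the decomposition -/
def fam (v : Fin n → ℝ) : Option (Fin n) → Set (Fin n → ℝ)
  | none => stdS n
  | some k => if v k < 0 then piece v k else ∅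

lemma fam_isCompact (v : Fin n → ℝ) (o : Option (Fin n)) : IsCompact (fam v o) := by
  cases o with
  | none => exact stdS_isCompact
  | some k =>
    simp only [fam]
    split_ifs
    · exact piece_isCompact v k
    · exact isCompact_empty

lemma hullV_eq_iUnion (v : Fin n → ℝ) (hv : ∑ k, v k < 1) : hullV v = ⋃ o, fam v o := by
  rw [hullV_eq v hv, Set.iUnion_option]
  rfl

lemma hullV_isCompact (v : Fin n → ℝ) (hv : ∑ k, v k < 1) : IsCompact (hullV v) := by
  rw [hullV_eq_iUnion v hv]
  exact isCompact_iUnion (fam_isCompact v)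

lemma aedisjoint_stdS_piece (v : Fin n → ℝ) (k : Fin n) (hk : v k < 0) :
    AEDisjoint volume (stdS n) (piece v k) := by
  have hsub : stdS n ∩ piece v k ⊆ {x : Fin n → ℝ | (Pi.single k 1 : Fin n → ℝ) ⬝ᵥ x = 0} := by
    rintro x ⟨hx, y, hy, rfl⟩
    have h1 := hx.1 k
    rw [repl_apply_self] at h1
    have h2 := hy.1 k
    have h3 : y k * v k ≤ 0 := mul_nonpos_of_nonneg_of_nonpos h2 hk.le
    simp only [Set.mem_ofPred_eq, single_dotProduct, one_mul, repl_apply_self]
    linarith
  refine measure_mono_null hsub (volume_hyperplane_zero _ ?_)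
  intro h
  have := congrFun h k
  simp at this

lemma aedisjoint_piece_piece (v : Fin n → ℝ) {k l : Fin n} (hkl : k ≠ l) (hk : v k < 0) (hl : v l < 0) :
    AEDisjoint volume (piece v k) (piece v l) := by
  have hsub : piece v k ∩ piece v l ⊆
      {x : Fin n → ℝ | (v k • (Pi.single l 1 : Fin n → ℝ) - v l • (Pi.single k 1 : Fin n → ℝ)) ⬝ᵥ x = 0} := by
    rintro x ⟨⟨y, hy, rfl⟩, ⟨z, hz, hzy⟩⟩
    have e1 : repl v k y k = y k * v k := repl_apply_self v k y
    have e2 : repl v k y l = y l + y k * v l := repl_apply_ne v k y hkl.symm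
    have e3 : repl v k y l = z l * v l := by rw [← hzy]; exact repl_apply_self v l z
    have e4 : repl v k y k = z k + z l * v k := by rw [← hzy]; exact repl_apply_ne v l z hkl
    have h1 : 0 ≤ y l := hy.1 l
    have h2 : 0 ≤ z k := hz.1 k
    simp only [Set.mem_ofPred_eq, sub_dotProduct, smul_dotProduct, single_dotProduct, one_mul, smul_eq_mul]
    have a1 : v k * repl v k y l - v l * repl v k y k = v k * y l := by rw [e1, e2]; ring
    have a2 : v k * repl v k y l - v l * repl v k y k = - (v l * z k) := by rw [e3, e4]; ring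
    have b1 : v k * y l ≤ 0 := mul_nonpos_of_nonpos_of_nonneg hk.le h1
    have b2 : v l * z k ≤ 0 := mul_nonpos_of_nonpos_of_nonneg hl.le h2
    linarith
  refine measure_mono_null hsub (volume_hyperplane_zero _ ?_)
  intro h
  have := congrFun h l
  simp [Pi.single_eq_of_ne hkl.symm] at this
  exact hk.ne this

lemma fam_pairwise (v : Fin n → ℝ) : Pairwise (Function.onFun (AEDisjoint volume) (fam v)) := by
  intro o p hop
  simp only [Function.onFun]
  cases o with
  | none =>
    cases p with
    | none => exact absurd rfl hop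
    | some l =>
      simp only [fam]
      split_ifs with hl
      · exact aedisjoint_stdS_piece v l hl
      · simp [AEDisjoint]
  | some k =>
    cases p with
    | none =>
      simp only [fam]
      split_ifs with hk
      · exact (aedisjoint_stdS_piece v k hk).symm
      · simp [AEDisjoint]
    | some l =>
      have hkl : k ≠ l := fun h => hop (by rw [h])
      simp only [fam]
      split_ifs with hk hl
      · exact aedisjoint_piece_piece v hkl hk hl
      · simp [AEDisjoint]
      · simp [AEDisjoint]
      · simp [AEDisjoint]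

lemma integral_piece (v : Fin n → ℝ) (k : Fin n) (hk : v k < 0) (g : (Fin n → ℝ) → ℝ) :
    ∫ x in piece v k, g x = (- v k) * ∫ x in stdS n, g (repl v k x) := by
  have hba : 1 + (Pi.single k 1 : Fin n → ℝ) ⬝ᵥ (v - Pi.single k 1) = v k := by
    simp [dotProduct_sub]
  have h := setIntegral_image_rankOne (v - Pi.single k 1) (Pi.single k 1 : Fin n → ℝ) 0
    (by rw [hba]; exact hk.ne) stdS_isCompact.measurableSet g
  rw [hba, abs_of_neg hk] at h
  have hfun : ∀ x : Fin n → ℝ, x + ((Pi.single k 1 : Fin n → ℝ) ⬝ᵥ x + 0) • (v - Pi.single k 1)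
      = repl v k x := by
    intro x
    simp [repl]
  simp_rw [hfun] at h
  exact h

lemma integral_hullV (v : Fin n → ℝ) (hv : ∑ k, v k < 1) {g : (Fin n → ℝ) → ℝ} (hg : Continuous g) :
    ∫ x in hullV v, g x
      = (∫ x in stdS n, g x) + ∑ k, max (- v k) 0 * ∫ x in stdS n, g (repl v k x) := by
  have hint : IntegrableOn g (⋃ o, fam v o) volume := by
    rw [← hullV_eq_iUnion v hv]
    exact integrableOn_of_continuous (hullV_isCompact v hv) hg
  rw [hullV_eq_iUnion v hv, integral_iUnion_ae (fun o => (fam_isCompact v o).measurableSet.nullMeasurableSet)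
    (fam_pairwise v) hint, tsum_fintype, Fintype.sum_option]
  congr 1
  refine Finset.sum_congr rfl fun k _ => ?_
  simp only [fam]
  split_ifs with hk
  · rw [integral_piece v k hk, max_eq_left (by linarith)]
  · push Not at hk
    rw [max_eq_right (by linarith)]
    simp

end Vale.Agent.Lib.P254
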