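import Mathlib

/-!
Basic definitions for the isotropic constant of a subset of `ℝ^n` (modelled as `Fin n → ℝ`
with its Lebesgue measure `volume`).
-/

namespace Vale.Agent.Lib.P254

open MeasureTheory

/-- Lebesgue volume of `K`, as a real number. -/
noncomputable def vol {n : ℕ} (K : Set (Fin n → ℝ)) : ℝ := (volume K).toReal

/-- The centroid `b_K = |K|⁻¹ ∫_K x dx`, coordinate by coordinate. -/
noncomputable def centroid {n : ℕ} (K : Set (Fin n → ℝ)) : Fin n → ℝ :=
  fun i => (vol K)⁻¹ * ∫ x in K, x i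

/-- The covariance matrix `Σ_K = |K|⁻¹ ∫_K (x - b_K)(x - b_K)ᵀ dx`. -/
noncomputable def covMatrix {n : ℕ} (K : Set (Fin n → ℝ)) : Matrix (Fin n) (Fin n) ℝ :=
  Matrix.of fun i j => (vol K)⁻¹ * ∫ x in K, (x i - centroid K i) * (x j - centroid K j)

/-- The isotropic constant `L_K = (det Σ_K / |K|²)^(1/(2n))`. -/
noncomputable def isoConst {n : ℕ} (K : Set (Fin n → ℝ)) : ℝ :=
  ((covMatrix K).det / (vol K) ^ 2) ^ (1 / (2 * (n : ℝ)))

end Vale.Agent.Lib.P254
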