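import Vale.Agent.Lib.P254.Moments

namespace Vale.Agent.Lib.P254

open MeasureTheory Matrix

variable {n : ℕ}

/-- the `3 × 3` coefficient matrix of the rank three correction -/
noncomputable def cMat (ν N : ℝ) : Matrix (Fin 3) (Fin 3) ℝ :=
  !![1 - 1 / (1 + ν) ^ 2 - (ν / (1 + ν)) ^ 2 / (N + 1), -1 + (ν / (1 + ν)) / (N + 1), -(ν / (1 + ν)) / (N + 1);
     -1 + (ν / (1 + ν)) / (N + 1), 1 - 1 / (N + 1), 1 / (N + 1);
     -(ν / (1 + ν)) / (N + 1), 1 / (N + 1), -1 / (N + 1)]

lemma det_core (α β ρ ν N : ℝ) (hs : 1 + ν ≠ 0) (hN : N + 1 ≠ 0) :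
    (1 + cMat ν N * !![α, 0, ρ; 0, β, ν; ρ, ν, N]).det
      = ((1 + β) + (α + (1 + ν - ρ) ^ 2) - (1 + β) * (α + (1 + ν - ρ) ^ 2) / (1 + ν) ^ 2) / (N + 1) := by
  rw [Matrix.det_fin_three]
  simp [cMat]
  field_simp
  ring

/-- the `n × 3` matrix with columns `v⁺`, `v⁻`, `1` -/
noncomputable def uMat (v : Fin n → ℝ) : Matrix (Fin n) (Fin 3) ℝ :=
  Matrix.of fun i c => ![posPart v i, negPart v i, 1] c

lemma posPart_sub_negPart (v : Fin n → ℝ) (i : Fin n) : v i = posPart v i - negPart v i := by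
  simp only [posPart, negPart]
  rcases le_total 0 (v i) with h | h
  · rw [max_eq_left h, max_eq_right (by linarith)]; ring
  · rw [max_eq_right h, max_eq_left (by linarith)]; ring

lemma posPart_mul_negPart (v : Fin n → ℝ) (i : Fin n) : posPart v i * negPart v i = 0 := by
  simp only [posPart, negPart]
  rcases le_total 0 (v i) with h | h
  · rw [max_eq_right (show - v i ≤ 0 by linarith)]; ring
  · rw [max_eq_right h]; ring

lemma negPart_nonneg (v : Fin n → ℝ) (i : Fin n) : 0 ≤ negPart v i := le_max_right _ _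

lemma posPart_nonneg (v : Fin n → ℝ) (i : Fin n) : 0 ≤ posPart v i := le_max_right _ _

lemma sum_negPart_nonneg (v : Fin n → ℝ) : 0 ≤ ∑ k, negPart v k :=
  Finset.sum_nonneg fun k _ => negPart_nonneg v k

lemma vol_hullV_pos (v : Fin n → ℝ) (hv : ∑ k, v k < 1) : 0 < vol (hullV v) := by
  rw [vol_hullV v hv]
  have := sum_negPart_nonneg v
  have := stdS_vol_pos (n := n)
  positivity

lemma cov_hullV (v : Fin n → ℝ) (hv : ∑ k, v k < 1) :
    covMatrix (hullV v) = (1 / (((n : ℝ) + 1) * ((n : ℝ) + 2))) •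
      (1 + uMat v * (cMat (∑ k, negPart v k) n * (uMat v)ᵀ)) := by
  ext i j
  rw [covMatrix_apply_eq (hullV_isCompact v hv) (vol_hullV_pos v hv).ne', m2_hullV v hv,
    m1_hullV v hv, m1_hullV v hv, vol_hullV v hv]
  have hV := stdS_vol_pos (n := n)
  have hν := sum_negPart_nonneg v
  set V := vol (stdS n)
  set ν := ∑ k, negPart v k
  have hn1 : (0 : ℝ) < (n : ℝ) + 1 := by positivity
  have hn2 : (0 : ℝ) < (n : ℝ) + 2 := by positivity
  have hs : (0 : ℝ) < 1 + ν := by positivity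
  rw [posPart_sub_negPart v i, posPart_sub_negPart v j]
  simp only [Matrix.smul_apply, Matrix.add_apply, Matrix.one_apply, Matrix.mul_apply,
    Fin.sum_univ_three, uMat, cMat, Matrix.transpose_apply, Matrix.of_apply, smul_eq_mul]
  generalize (if i = j then (1 : ℝ) else 0) = δ
  generalize posPart v i = qi
  generalize posPart v j = qj
  generalize negPart v i = ai
  generalize negPart v j = aj
  simp
  field_simp
  ring

lemma gram_uMat (v : Fin n → ℝ) : (uMat v)ᵀ * uMat v =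
    !![∑ k, posPart v k ^ 2, 0, ∑ k, posPart v k;
       0, ∑ k, negPart v k ^ 2, ∑ k, negPart v k;
       ∑ k, posPart v k, ∑ k, negPart v k, (n : ℝ)] := by
  ext c d
  fin_cases c <;> fin_cases d <;>
    simp [Matrix.mul_apply, uMat, posPart_mul_negPart, mul_comm (negPart v _) (posPart v _), sq]

lemma det_cov_hullV (v : Fin n → ℝ) (hv : ∑ k, v k < 1) :
    (covMatrix (hullV v)).det = (1 / (((n : ℝ) + 1) * ((n : ℝ) + 2))) ^ n *
      (((1 + ∑ k, negPart v k ^ 2) + (∑ k, posPart v k ^ 2 + (1 + ∑ k, negPart v k - ∑ k, posPart v k) ^ 2)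
        - (1 + ∑ k, negPart v k ^ 2) * (∑ k, posPart v k ^ 2 + (1 + ∑ k, negPart v k - ∑ k, posPart v k) ^ 2)
          / (1 + ∑ k, negPart v k) ^ 2) / ((n : ℝ) + 1)) := by
  have hν := sum_negPart_nonneg v
  rw [cov_hullV v hv, Matrix.det_smul, Fintype.card_fin, Matrix.det_one_add_mul_comm, Matrix.mul_assoc,
    gram_uMat, det_core _ _ _ _ _ (by positivity) (by positivity)]

end Vale.Agent.Lib.P254
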