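import Vale.Agent.Lib.P254.Main

namespace Vale.Agent.Lib.P254

open MeasureTheory Matrix

variable {n : ℕ}

lemma exists_simplex_insert (V : Finset (Fin n → ℝ)) (hcard : V.card ≤ n + 2)
    (hint : (interior (convexHull ℝ (V : Set (Fin n → ℝ)))).Nonempty) :
    ∃ (T : Fin (n + 1) → (Fin n → ℝ)) (w : Fin n → ℝ), AffineIndependent ℝ T ∧
      (V : Set (Fin n → ℝ)) = insert w (Set.range T) := by
  classical
  have htop : affineSpan ℝ (V : Set (Fin n → ℝ)) = ⊤ :=
    interior_convexHull_nonempty_iff_affineSpan_eq_top.mp hint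
  obtain ⟨t, htV, hspan, hind⟩ := exists_affineIndependent ℝ (Fin n → ℝ) (V : Set (Fin n → ℝ))
  have htfin : t.Finite := V.finite_toSet.subset htV
  have : Fintype t := htfin.fintype
  have hcardt : Fintype.card t = n + 1 := by
    have h := hind.affineSpan_eq_top_iff_card_eq_finrank_add_one
    rw [Subtype.range_coe, hspan, htop] at h
    simpa using h.mp rfl
  let e : Fin (n + 1) ≃ t := (Fintype.equivFinOfCardEq hcardt).symm
  have hrange : Set.range (fun k => ((e k : t) : Fin n → ℝ)) = t := by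
    ext x
    constructor
    · rintro ⟨k, rfl⟩; exact (e k).2
    · intro hx; exact ⟨e.symm ⟨x, hx⟩, by simp⟩
  have hT : AffineIndependent ℝ (fun k => ((e k : t) : Fin n → ℝ)) := hind.comp_embedding e.toEmbedding
  have hsub : htfin.toFinset ⊆ V := by
    intro x hx
    exact htV (by simpa using hx)
  have hcard' : htfin.toFinset.card = n + 1 := by
    rw [← hcardt, Set.Finite.card_toFinset]
  have hdiff : (V \ htfin.toFinset).card ≤ 1 := by
    rw [Finset.card_sdiff_of_subset hsub, hcard']
    omega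
  rcases (V \ htfin.toFinset).eq_empty_or_nonempty with h | ⟨w, hw⟩
  · refine ⟨_, ((e 0 : t) : Fin n → ℝ), hT, ?_⟩
    rw [hrange, Set.insert_eq_of_mem (e 0).2]
    apply Set.Subset.antisymm _ htV
    intro x hx
    have : x ∈ htfin.toFinset := Finset.sdiff_eq_empty_iff_subset.mp h hx
    simpa using this
  · refine ⟨_, w, hT, ?_⟩
    rw [hrange]
    ext x
    constructor
    · intro hx
      by_cases hxt : x ∈ t
      · exact Or.inr hxt
      · left
        have hx' : x ∈ V \ htfin.toFinset := by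
          rw [Finset.mem_sdiff]; exact ⟨hx, by simpa using hxt⟩
        exact Finset.card_le_one.mp hdiff x hx' w hw
    · rintro (rfl | hx)
      · exact (Finset.mem_sdiff.mp hw).1
      · exact htV hx

theorem few_vertices (hn : 1 ≤ n) (V : Finset (Fin n → ℝ)) (hcard : V.card ≤ n + 2)
    (hint : (interior (convexHull ℝ (V : Set (Fin n → ℝ)))).Nonempty)
    (S : Fin (n + 1) → (Fin n → ℝ)) (hS : AffineIndependent ℝ S) :
    isoConst (convexHull ℝ (V : Set (Fin n → ℝ))) ≤ isoConst (convexHull ℝ (Set.range S)) ∧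
    (isoConst (convexHull ℝ (V : Set (Fin n → ℝ))) = isoConst (convexHull ℝ (Set.range S)) →
      ∃ P : Fin (n + 1) → (Fin n → ℝ), AffineIndependent ℝ P ∧
        convexHull ℝ (V : Set (Fin n → ℝ)) = convexHull ℝ (Set.range P)) := by
  obtain ⟨T, w, hT, hV⟩ := exists_simplex_insert V hcard hint
  obtain ⟨h0, hle, heq⟩ := main_qf T hT w
  have hn' : (0 : ℝ) < (n : ℝ) := by exact_mod_cast hn
  have hexp : (0 : ℝ) < 1 / (2 * (n : ℝ)) := by positivity
  rw [hV, isoConst_eq, isoConst_eq, qf_simplex S hS]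
  refine ⟨Real.rpow_le_rpow h0 hle hexp.le, fun h => ?_⟩
  exact heq ((Real.rpow_left_inj h0 qf_stdS_pos.le hexp.ne').mp h)

end Vale.Agent.Lib.P254
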