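import Vale.Agent.Lib.P254.Normal

namespace Vale.Agent.Lib.P254

open MeasureTheory Matrix

variable {n : ℕ}

/-- vertices of the standard simplex -/
noncomputable def stdVert (n : ℕ) : Fin (n + 1) → (Fin n → ℝ) :=
  Fin.cons 0 (fun j => Pi.single j 1)

lemma single_mem_stdS (j : Fin n) : (Pi.single j 1 : Fin n → ℝ) ∈ stdS n := by
  refine ⟨fun i => ?_, ?_⟩
  · by_cases h : i = j
    · subst h; simp
    · simp [Pi.single_eq_of_ne h]
  · rw [sum_single_one]

lemma eq_sum_single (x : Fin n → ℝ) : x = ∑ j, x j • (Pi.single j 1 : Fin n → ℝ) := by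
  funext i
  simp [Finset.sum_apply, Pi.single_apply]

lemma stdS_eq_convexHull : stdS n = convexHull ℝ (Set.range (stdVert n)) := by
  apply Set.Subset.antisymm
  · intro x hx
    have hx' : x = ∑ k : Fin (n + 1), (Fin.cons (1 - ∑ j, x j) x : Fin (n + 1) → ℝ) k • stdVert n k := by
      rw [Fin.sum_univ_succ]
      simp only [stdVert, Fin.cons_zero, Fin.cons_succ, smul_zero, zero_add]
      exact eq_sum_single x
    rw [hx']
    apply (convex_convexHull ℝ _).sum_mem
    · intro k _
      refine Fin.cases ?_ (fun j => ?_) k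
      · simp only [Fin.cons_zero]; linarith [hx.2]
      · simp only [Fin.cons_succ]; exact hx.1 j
    · rw [Fin.sum_univ_succ]; simp
    · intro k _; exact subset_convexHull ℝ _ (Set.mem_range_self k)
  · apply convexHull_min _ stdS_convex
    rintro _ ⟨k, rfl⟩
    refine Fin.cases ?_ (fun j => ?_) k
    · simp only [stdVert, Fin.cons_zero]; exact zero_mem_stdS
    · simp only [stdVert, Fin.cons_succ]; exact single_mem_stdS j

/-- the affine map `x ↦ M x + b` -/
noncomputable def affA (M : Matrix (Fin n) (Fin n) ℝ) (b : Fin n → ℝ) :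
    (Fin n → ℝ) →ᵃ[ℝ] (Fin n → ℝ) :=
  (Matrix.toLin' M).toAffineMap + AffineMap.const ℝ _ b

lemma affA_apply (M : Matrix (Fin n) (Fin n) ℝ) (b x : Fin n → ℝ) : affA M b x = M *ᵥ x + b := by
  simp [affA]

lemma image_convexHull_aff (M : Matrix (Fin n) (Fin n) ℝ) (b : Fin n → ℝ) (X : Set (Fin n → ℝ)) :
    (fun x => M *ᵥ x + b) '' convexHull ℝ X = convexHull ℝ ((fun x => M *ᵥ x + b) '' X) := by
  have h := (affA M b).image_convexHull X
  have hf : (⇑(affA M b)) = fun x => M *ᵥ x + b := funext (affA_apply M b)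
  rw [hf] at h
  exact h

/-- matrix whose columns are the edge vectors issuing from the vertex `T 0` -/
noncomputable def diffMat (T : Fin (n + 1) → (Fin n → ℝ)) : Matrix (Fin n) (Fin n) ℝ :=
  Matrix.of fun i j => T j.succ i - T 0 i

lemma diffMat_mulVec (T : Fin (n + 1) → (Fin n → ℝ)) (x : Fin n → ℝ) :
    diffMat T *ᵥ x = ∑ j, x j • (T j.succ - T 0) := by
  funext i
  simp only [Matrix.mulVec, dotProduct, diffMat, Matrix.of_apply, Finset.sum_apply, Pi.smul_apply,
    Pi.sub_apply, smul_eq_mul]
  exact Finset.sum_congr rfl fun j _ => by ring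

lemma diffMat_det_ne_zero (T : Fin (n + 1) → (Fin n → ℝ)) (hT : AffineIndependent ℝ T) :
    (diffMat T).det ≠ 0 := by
  have h1 := (affineIndependent_iff_linearIndependent_vsub ℝ T 0).mp hT
  have h2 : LinearIndependent ℝ (fun j : Fin n => T j.succ - T 0) := by
    have := h1.comp (fun j : Fin n => (⟨j.succ, Fin.succ_ne_zero j⟩ : {x : Fin (n + 1) // x ≠ 0}))
      (by intro a b h; simpa using h)
    exact this
  have h3 : LinearIndependent ℝ (diffMat T).col := h2
  exact ((Matrix.isUnit_iff_isUnit_det _).mp (Matrix.linearIndependent_cols_iff_isUnit.mp h3)).ne_zero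

lemma aff_stdVert (T : Fin (n + 1) → (Fin n → ℝ)) (k : Fin (n + 1)) :
    diffMat T *ᵥ stdVert n k + T 0 = T k := by
  rw [diffMat_mulVec]
  refine Fin.cases ?_ (fun j => ?_) k
  · simp [stdVert]
  · simp only [stdVert, Fin.cons_succ]
    have : ∑ i, (Pi.single j 1 : Fin n → ℝ) i • (T i.succ - T 0) = T j.succ - T 0 := by
      rw [Finset.sum_eq_single j]
      · simp
      · intro i _ hi; simp [Pi.single_eq_of_ne hi]
      · intro h; exact absurd (Finset.mem_univ j) h
    rw [this]; abel

lemma image_range_stdVert (T : Fin (n + 1) → (Fin n → ℝ)) :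
    (fun x => diffMat T *ᵥ x + T 0) '' Set.range (stdVert n) = Set.range T := by
  rw [← Set.range_comp]
  congr 1
  funext k
  exact aff_stdVert T k

lemma image_stdS (T : Fin (n + 1) → (Fin n → ℝ)) :
    (fun x => diffMat T *ᵥ x + T 0) '' stdS n = convexHull ℝ (Set.range T) := by
  rw [stdS_eq_convexHull, image_convexHull_aff, image_range_stdVert]

lemma hullV_eq_convexHull (v : Fin n → ℝ) :
    hullV v = convexHull ℝ (insert v (Set.range (stdVert n))) := by
  rw [hullV, stdS_eq_convexHull, Set.insert_eq, Set.insert_eq, convexHull_convexHull_union_right]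

lemma image_hullV (T : Fin (n + 1) → (Fin n → ℝ)) (v : Fin n → ℝ) :
    (fun x => diffMat T *ᵥ x + T 0) '' hullV v
      = convexHull ℝ (insert (diffMat T *ᵥ v + T 0) (Set.range T)) := by
  rw [hullV_eq_convexHull, image_convexHull_aff, Set.image_insert_eq, image_range_stdVert]

end Vale.Agent.Lib.P254
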