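import Vale.Agent.Lib.P254.General

namespace Vale.Agent.Lib.P254

open MeasureTheory Matrix

variable {n : ℕ}

lemma affineSpan_eq_top_of_indep (T : Fin (n + 1) → (Fin n → ℝ)) (hT : AffineIndependent ℝ T) :
    affineSpan ℝ (Set.range T) = ⊤ := by
  rw [hT.affineSpan_eq_top_iff_card_eq_finrank_add_one]; simp

lemma exists_normal_form (T : Fin (n + 1) → (Fin n → ℝ)) (hT : AffineIndependent ℝ T) (w : Fin n → ℝ) :
    ∃ (T' : Fin (n + 1) → (Fin n → ℝ)) (v : Fin n → ℝ), AffineIndependent ℝ T' ∧
      Set.range T' = Set.range T ∧ ∑ k, v k < 1 ∧ diffMat T' *ᵥ v + T' 0 = w := by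
  let B : AffineBasis (Fin (n + 1)) ℝ (Fin n → ℝ) := ⟨T, hT, affineSpan_eq_top_of_indep T hT⟩
  set c : Fin (n + 1) → ℝ := fun k => B.coord k w with hc
  have hc1 : ∑ k, c k = 1 := B.sum_coord_apply_eq_one w
  have hcw : ∑ k, c k • T k = w := B.linear_combination_coord_eq_self w
  obtain ⟨k0, hk0⟩ : ∃ k0, 0 < c k0 := by
    by_contra h
    push Not at h
    have : ∑ k, c k ≤ 0 := Finset.sum_nonpos fun k _ => h k
    linarith
  let σ : Equiv.Perm (Fin (n + 1)) := Equiv.swap 0 k0
  have hσ0 : σ 0 = k0 := Equiv.swap_apply_left 0 k0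
  have hs1 : ∑ k, c (σ k) = 1 := by rw [Equiv.sum_comp σ c]; exact hc1
  have hsw : ∑ k, c (σ k) • T (σ k) = w := by
    rw [Equiv.sum_comp σ (fun k => c k • T k)]; exact hcw
  refine ⟨T ∘ σ, fun j => c (σ j.succ), hT.comp_embedding σ.toEmbedding, ?_, ?_, ?_⟩
  · exact σ.surjective.range_comp T
  · rw [Fin.sum_univ_succ, hσ0] at hs1
    linarith
  · rw [diffMat_mulVec]
    rw [Fin.sum_univ_succ] at hs1 hsw
    simp only [Function.comp_apply, smul_sub, Finset.sum_sub_distrib, ← Finset.sum_smul]
    have e : ∑ j : Fin n, c (σ j.succ) = 1 - c (σ 0) := by linarith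
    rw [e, ← hsw, sub_smul, one_smul]
    abel

lemma qf_simplex (T : Fin (n + 1) → (Fin n → ℝ)) (hT : AffineIndependent ℝ T) :
    qf (convexHull ℝ (Set.range T)) = qf (stdS n) := by
  rw [← image_stdS T, qf_image_affine _ _ (diffMat_det_ne_zero T hT) stdS_isCompact stdS_vol_pos.ne']

lemma affineIndependent_of_interior (P : Fin (n + 1) → (Fin n → ℝ))
    (h : (interior (convexHull ℝ (Set.range P))).Nonempty) : AffineIndependent ℝ P := by
  rw [interior_convexHull_nonempty_iff_affineSpan_eq_top] at h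
  rw [affineIndependent_iff_le_finrank_vectorSpan ℝ P (n := n) (by simp)]
  rw [← direction_affineSpan, h, AffineSubspace.direction_top, finrank_top]
  simp

lemma hullV_of_nonpos (v : Fin n → ℝ) (hv : ∀ k, v k ≤ 0) :
    hullV v = convexHull ℝ (Set.range (Fin.cons v (fun j => Pi.single j 1) : Fin (n + 1) → (Fin n → ℝ))) := by
  set E' : Fin (n + 1) → (Fin n → ℝ) := Fin.cons v (fun j => Pi.single j 1) with hE'
  have hs : 0 < 1 - ∑ k, v k := by
    have : ∑ k, v k ≤ 0 := Finset.sum_nonpos fun k _ => hv k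
    linarith
  have h0 : (0 : Fin n → ℝ) ∈ convexHull ℝ (Set.range E') := by
    have e : (0 : Fin n → ℝ) = ∑ k : Fin (n + 1),
        (Fin.cons (1 / (1 - ∑ k, v k)) (fun j => - v j / (1 - ∑ k, v k)) : Fin (n + 1) → ℝ) k • E' k := by
      rw [Fin.sum_univ_succ]
      simp only [hE', Fin.cons_zero, Fin.cons_succ]
      have e2 : ∑ j : Fin n, (- v j / (1 - ∑ k, v k)) • (Pi.single j 1 : Fin n → ℝ)
          = - ((1 / (1 - ∑ k, v k)) • v) := by
        funext i
        simp [Finset.sum_apply, Pi.single_apply]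
        ring
      rw [e2]; abel
    rw [e]
    apply (convex_convexHull ℝ _).sum_mem
    · intro k _
      refine Fin.cases ?_ (fun j => ?_) k
      · simp only [Fin.cons_zero]; positivity
      · simp only [Fin.cons_succ]
        apply div_nonneg _ hs.le
        linarith [hv j]
    · rw [Fin.sum_univ_succ]
      simp only [Fin.cons_zero, Fin.cons_succ]
      rw [← Finset.sum_div, Finset.sum_neg_distrib]
      field_simp
      ring
    · intro k _; exact subset_convexHull ℝ _ (Set.mem_range_self k)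
  rw [hullV_eq_convexHull]
  apply Set.Subset.antisymm
  · apply convexHull_min _ (convex_convexHull ℝ _)
    intro x hx
    rcases hx with rfl | ⟨k, rfl⟩
    · exact subset_convexHull ℝ _ ⟨0, by simp [hE']⟩
    · refine Fin.cases ?_ (fun j => ?_) k
      · simpa [stdVert] using h0
      · exact subset_convexHull ℝ _ ⟨j.succ, by simp [hE', stdVert]⟩
  · apply convexHull_mono
    rintro _ ⟨k, rfl⟩
    refine Fin.cases ?_ (fun j => ?_) k
    · left; simp [hE']
    · right; exact ⟨j.succ, by simp [hE', stdVert]⟩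

/-- main statement at the level of `qf` -/
theorem main_qf (T : Fin (n + 1) → (Fin n → ℝ)) (hT : AffineIndependent ℝ T) (w : Fin n → ℝ) :
    0 ≤ qf (convexHull ℝ (insert w (Set.range T))) ∧
    qf (convexHull ℝ (insert w (Set.range T))) ≤ qf (stdS n) ∧
    (qf (convexHull ℝ (insert w (Set.range T))) = qf (stdS n) →
      ∃ P : Fin (n + 1) → (Fin n → ℝ), AffineIndependent ℝ P ∧
        convexHull ℝ (insert w (Set.range T)) = convexHull ℝ (Set.range P)) := by
  obtain ⟨T', v, hT', hrange, hv, hw⟩ := exists_normal_form T hT w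
  have himg : (fun x => diffMat T' *ᵥ x + T' 0) '' hullV v = convexHull ℝ (insert w (Set.range T)) := by
    rw [image_hullV, hw, hrange]
  have hq : qf (convexHull ℝ (insert w (Set.range T))) = qf (hullV v) := by
    rw [← himg, qf_image_affine _ _ (diffMat_det_ne_zero T' hT') (hullV_isCompact v hv)
      (vol_hullV_pos v hv).ne']
  refine ⟨hq ▸ qf_hullV_nonneg v hv, hq ▸ qf_hullV_le v hv, fun heq => ?_⟩
  rw [hq] at heq
  rcases eq_case v hv heq with h | h
  · refine ⟨T, hT, ?_⟩
    rw [← himg, hullV_of_mem ⟨h, hv.le⟩, image_stdS, hrange]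
  · refine ⟨fun k => diffMat T' *ᵥ (Fin.cons v (fun j => Pi.single j 1) : Fin (n + 1) → (Fin n → ℝ)) k + T' 0,
      ?_, ?_⟩
    · apply affineIndependent_of_interior
      have h1 : convexHull ℝ (Set.range T) ⊆ convexHull ℝ (Set.range fun k =>
          diffMat T' *ᵥ (Fin.cons v (fun j => Pi.single j 1) : Fin (n + 1) → (Fin n → ℝ)) k + T' 0) := by
        have : convexHull ℝ (Set.range fun k =>
          diffMat T' *ᵥ (Fin.cons v (fun j => Pi.single j 1) : Fin (n + 1) → (Fin n → ℝ)) k + T' 0)
            = convexHull ℝ (insert w (Set.range T)) := by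
          rw [← himg, hullV_of_nonpos v h, image_convexHull_aff, ← Set.range_comp]
          rfl
        rw [this]
        exact convexHull_mono (Set.subset_insert _ _)
      have h2 : (interior (convexHull ℝ (Set.range T))).Nonempty :=
        interior_convexHull_nonempty_iff_affineSpan_eq_top.mpr (affineSpan_eq_top_of_indep T hT)
      exact h2.mono (interior_mono h1)
    · rw [← himg, hullV_of_nonpos v h, image_convexHull_aff, ← Set.range_comp]
      rfl

end Vale.Agent.Lib.P254
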