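import Vale.Agent.Lib.P254.Decomp2

namespace Vale.Agent.Lib.P254

open MeasureTheory Matrix

variable {n : ℕ}

lemma covMatrix_apply_eq {K : Set (Fin n → ℝ)} (hK : IsCompact K) (hv : vol K ≠ 0) (i j : Fin n) :
    covMatrix K i j = (∫ x in K, x i * x j) / vol K
      - ((∫ x in K, x i) / vol K) * ((∫ x in K, x j) / vol K) := by
  simp only [covMatrix, Matrix.of_apply]
  set c := centroid K with hc
  have h1 : ∀ x : Fin n → ℝ, (x i - c i) * (x j - c j)
      = x i * x j - c j * x i - c i * x j + c i * c j * 1 := by
    intro x; ring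
  simp_rw [h1]
  rw [integral_add, integral_sub, integral_sub, integral_const_mul, integral_const_mul,
    integral_const_mul, ← vol_eq_integral]
  · have e1 : c i = (vol K)⁻¹ * ∫ x in K, x i := rfl
    have e2 : c j = (vol K)⁻¹ * ∫ x in K, x j := rfl
    rw [e1, e2]
    field_simp
    ring
  all_goals exact integrableOn_of_continuous hK (by fun_prop)

/-- negative part of the extra vertex -/
noncomputable def negPart (v : Fin n → ℝ) : Fin n → ℝ := fun k => max (- v k) 0

/-- positive part of the extra vertex -/
noncomputable def posPart (v : Fin n → ℝ) : Fin n → ℝ := fun k => max (v k) 0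

lemma vol_hullV (v : Fin n → ℝ) (hv : ∑ k, v k < 1) :
    vol (hullV v) = vol (stdS n) * (1 + ∑ k, negPart v k) := by
  rw [vol_eq_integral, integral_hullV v hv continuous_const, ← vol_eq_integral, ← Finset.sum_mul]
  simp only [negPart]
  ring

lemma piece_m1 (v : Fin n → ℝ) (k i : Fin n) :
    ∫ x in stdS n, repl v k x i
      = vol (stdS n) / ((n : ℝ) + 1) * (1 + v i - if i = k then 1 else 0) := by
  simp_rw [repl_apply]
  rw [integral_add, integral_mul_const, stdS_m1, stdS_m1]
  · ring
  · exact stdS_integrable (by fun_prop)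
  · exact stdS_integrable (by fun_prop)

lemma m1_hullV (v : Fin n → ℝ) (hv : ∑ k, v k < 1) (i : Fin n) :
    ∫ x in hullV v, x i
      = vol (stdS n) / ((n : ℝ) + 1) * (1 + (∑ k, negPart v k) * (1 + v i) - negPart v i) := by
  rw [integral_hullV v hv (continuous_apply i), stdS_m1]
  simp_rw [piece_m1]
  have h : ∀ k ∈ Finset.univ, max (- v k) 0 * (vol (stdS n) / ((n : ℝ) + 1) * (1 + v i - if i = k then 1 else 0))
      = vol (stdS n) / ((n : ℝ) + 1) * (negPart v k * (1 + v i) - if i = k then negPart v k else 0) := by
    intro k _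
    simp only [negPart]
    split_ifs <;> ring
  rw [Finset.sum_congr rfl h, ← Finset.mul_sum, Finset.sum_sub_distrib, ← Finset.sum_mul,
    Finset.sum_ite_eq]
  simp
  ring

lemma piece_m2 (v : Fin n → ℝ) (k i j : Fin n) :
    ∫ x in stdS n, repl v k x i * repl v k x j
      = vol (stdS n) / (((n : ℝ) + 1) * ((n : ℝ) + 2)) *
        ((1 + if i = j then 1 else 0) + v i + v j + 2 * v i * v j
          - (1 + v j) * (if i = k then 1 else 0) - (1 + v i) * (if j = k then 1 else 0)) := by
  simp_rw [repl_apply]
  set di := v i - if i = k then 1 else 0 with hdi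
  set dj := v j - if j = k then 1 else 0 with hdj
  have h1 : ∀ x : Fin n → ℝ, (x i + x k * di) * (x j + x k * dj)
      = x i * x j + dj * (x i * x k) + di * (x k * x j) + di * dj * (x k * x k) := by
    intro x; ring
  simp_rw [h1]
  rw [integral_add, integral_add, integral_add, integral_const_mul, integral_const_mul,
    integral_const_mul, stdS_m2, stdS_m2, stdS_m2, stdS_m2]
  · rw [hdi, hdj]
    by_cases hik : i = k
    · by_cases hjk : j = k
      · subst hik; subst hjk; simp; ring
      · have hij : i ≠ j := fun h => hjk (h ▸ hik)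
        have hkj : k ≠ j := fun h => hjk h.symm
        simp [hik, hjk, hkj]; ring
    · by_cases hjk : j = k
      · have hij : i ≠ j := fun h => hik (h.trans hjk)
        subst hjk
        simp [hik, hij]; ring
      · have hkj : k ≠ j := fun h => hjk h.symm
        simp [hik, hjk, hkj]; ring
  all_goals exact stdS_integrable (by fun_prop)

lemma m2_hullV (v : Fin n → ℝ) (hv : ∑ k, v k < 1) (i j : Fin n) :
    ∫ x in hullV v, x i * x j
      = vol (stdS n) / (((n : ℝ) + 1) * ((n : ℝ) + 2)) *
        ((1 + ∑ k, negPart v k) * (if i = j then 1 else 0) + 1 + (∑ k, negPart v k) * (v i * v j)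
          + (∑ k, negPart v k) * ((1 + v i) * (1 + v j))
          - negPart v j * (1 + v i) - negPart v i * (1 + v j)) := by
  rw [integral_hullV v hv (by fun_prop), stdS_m2]
  simp_rw [piece_m2]
  have h : ∀ k ∈ Finset.univ, max (- v k) 0 * (vol (stdS n) / (((n : ℝ) + 1) * ((n : ℝ) + 2)) *
        ((1 + if i = j then 1 else 0) + v i + v j + 2 * v i * v j
          - (1 + v j) * (if i = k then 1 else 0) - (1 + v i) * (if j = k then 1 else 0)))
      = vol (stdS n) / (((n : ℝ) + 1) * ((n : ℝ) + 2)) *
        (negPart v k * ((1 + if i = j then 1 else 0) + v i + v j + 2 * v i * v j)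
          - (if i = k then negPart v k * (1 + v j) else 0) - (if j = k then negPart v k * (1 + v i) else 0)) := by
    intro k _
    simp only [negPart]
    split_ifs <;> ring
  rw [Finset.sum_congr rfl h, ← Finset.mul_sum, Finset.sum_sub_distrib, Finset.sum_sub_distrib,
    ← Finset.sum_mul, Finset.sum_ite_eq, Finset.sum_ite_eq]
  simp only [Finset.mem_univ, if_true]
  ring

end Vale.Agent.Lib.P254
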