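import Vale.Agent.Lib.P254.DetCalc

namespace Vale.Agent.Lib.P254

open MeasureTheory Matrix

variable {n : ℕ}

lemma sum_sq_le_sq_sum' (f : Fin n → ℝ) (hf : ∀ k, 0 ≤ f k) : ∑ k, f k ^ 2 ≤ (∑ k, f k) ^ 2 := by
  rw [sq (∑ k, f k), Finset.sum_mul]
  refine Finset.sum_le_sum fun k _ => ?_
  rw [sq]
  exact mul_le_mul_of_nonneg_left (Finset.single_le_sum (fun j _ => hf j) (Finset.mem_univ k)) (hf k)

/-- first parameter: normalised sum of squares of the positive coefficients of the affine dependence -/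
noncomputable def wPar (v : Fin n → ℝ) : ℝ := (1 + ∑ k, negPart v k ^ 2) / (1 + ∑ k, negPart v k) ^ 2

/-- second parameter: normalised sum of squares of the negative coefficients of the affine dependence -/
noncomputable def yPar (v : Fin n → ℝ) : ℝ :=
  (∑ k, posPart v k ^ 2 + (1 - ∑ k, v k) ^ 2) / (1 + ∑ k, negPart v k) ^ 2

lemma sum_eq_pos_sub_neg (v : Fin n → ℝ) : ∑ k, v k = ∑ k, posPart v k - ∑ k, negPart v k := by
  rw [← Finset.sum_sub_distrib]
  exact Finset.sum_congr rfl fun k _ => posPart_sub_negPart v k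

lemma qf_hullV_raw (v : Fin n → ℝ) (hv : ∑ k, v k < 1) :
    qf (hullV v) = (1 / (((n : ℝ) + 1) * ((n : ℝ) + 2))) ^ n / ((n : ℝ) + 1) / (vol (stdS n)) ^ 2
      * (1 - (1 - wPar v) * (1 - yPar v)) := by
  have hν := sum_negPart_nonneg v
  have hV := stdS_vol_pos (n := n)
  simp only [qf, wPar, yPar]
  rw [det_cov_hullV v hv, vol_hullV v hv, sum_eq_pos_sub_neg v]
  have hn1 : (0 : ℝ) < (n : ℝ) + 1 := by positivity
  have hs : (0 : ℝ) < 1 + ∑ k, negPart v k := by positivity
  generalize (1 / (((n : ℝ) + 1) * ((n : ℝ) + 2))) ^ n = κn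
  field_simp
  ring

lemma hullV_of_mem {v : Fin n → ℝ} (hv : v ∈ stdS n) : hullV v = stdS n := by
  rw [hullV, Set.insert_eq_of_mem hv, stdS_convex.convexHull_eq]

lemma qf_stdS : qf (stdS n) = (1 / (((n : ℝ) + 1) * ((n : ℝ) + 2))) ^ n / ((n : ℝ) + 1) / (vol (stdS n)) ^ 2 := by
  have h := qf_hullV_raw (0 : Fin n → ℝ) (by simp)
  rw [hullV_of_mem zero_mem_stdS] at h
  rw [h]
  simp [wPar, yPar, posPart, negPart]

lemma qf_stdS_pos : 0 < qf (stdS n) := by
  rw [qf_stdS]
  have hV := stdS_vol_pos (n := n)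
  positivity

lemma qf_hullV (v : Fin n → ℝ) (hv : ∑ k, v k < 1) :
    qf (hullV v) = qf (stdS n) * (1 - (1 - wPar v) * (1 - yPar v)) := by
  rw [qf_hullV_raw v hv, qf_stdS]

lemma wPar_nonneg (v : Fin n → ℝ) : 0 ≤ wPar v := by
  unfold wPar
  have : 0 ≤ ∑ k, negPart v k ^ 2 := Finset.sum_nonneg fun k _ => sq_nonneg _
  positivity

lemma yPar_nonneg (v : Fin n → ℝ) : 0 ≤ yPar v := by
  unfold yPar
  have : 0 ≤ ∑ k, posPart v k ^ 2 := Finset.sum_nonneg fun k _ => sq_nonneg _
  positivity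

lemma wPar_le_one (v : Fin n → ℝ) : wPar v ≤ 1 := by
  unfold wPar
  have hν := sum_negPart_nonneg v
  have h := sum_sq_le_sq_sum' (negPart v) (negPart_nonneg v)
  rw [div_le_one (by positivity)]
  nlinarith

lemma yPar_le_one (v : Fin n → ℝ) (hv : ∑ k, v k < 1) : yPar v ≤ 1 := by
  unfold yPar
  have hν := sum_negPart_nonneg v
  have hρ : 0 ≤ ∑ k, posPart v k := Finset.sum_nonneg fun k _ => posPart_nonneg v k
  have h := sum_sq_le_sq_sum' (posPart v) (posPart_nonneg v)
  rw [div_le_one (by positivity)]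
  have e : 1 + ∑ k, negPart v k = ∑ k, posPart v k + (1 - ∑ k, v k) := by
    rw [sum_eq_pos_sub_neg v]; ring
  rw [e]
  nlinarith

lemma qf_hullV_le (v : Fin n → ℝ) (hv : ∑ k, v k < 1) : qf (hullV v) ≤ qf (stdS n) := by
  rw [qf_hullV v hv]
  have h1 := wPar_le_one v
  have h2 := yPar_le_one v hv
  have h3 := qf_stdS_pos (n := n)
  have : 0 ≤ (1 - wPar v) * (1 - yPar v) := mul_nonneg (by linarith) (by linarith)
  nlinarith

lemma qf_hullV_nonneg (v : Fin n → ℝ) (hv : ∑ k, v k < 1) : 0 ≤ qf (hullV v) := by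
  rw [qf_hullV v hv]
  have h1 := wPar_le_one v
  have h2 := yPar_le_one v hv
  have h1' := wPar_nonneg v
  have h2' := yPar_nonneg v
  have h3 := qf_stdS_pos (n := n)
  apply mul_nonneg h3.le
  nlinarith

lemma eq_case (v : Fin n → ℝ) (hv : ∑ k, v k < 1) (h : qf (hullV v) = qf (stdS n)) :
    (∀ k, 0 ≤ v k) ∨ (∀ k, v k ≤ 0) := by
  rw [qf_hullV v hv] at h
  have h3 := qf_stdS_pos (n := n)
  have h4 : (1 - wPar v) * (1 - yPar v) = 0 := by
    have : qf (stdS n) * ((1 - wPar v) * (1 - yPar v)) = 0 := by linarith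
    rcases mul_eq_zero.mp this with h5 | h5
    · exact absurd h5 h3.ne'
    · exact h5
  have hν := sum_negPart_nonneg v
  have hρ : 0 ≤ ∑ k, posPart v k := Finset.sum_nonneg fun k _ => posPart_nonneg v k
  rcases mul_eq_zero.mp h4 with h5 | h5
  · left
    have hW : wPar v = 1 := by linarith
    unfold wPar at hW
    rw [div_eq_one_iff_eq (by positivity)] at hW
    have h := sum_sq_le_sq_sum' (negPart v) (negPart_nonneg v)
    have hν0 : ∑ k, negPart v k = 0 := by nlinarith
    intro k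
    have := (Finset.sum_eq_zero_iff_of_nonneg (fun k _ => negPart_nonneg v k)).mp hν0 k (Finset.mem_univ k)
    have h6 : - v k ≤ negPart v k := le_max_left _ _
    linarith
  · right
    have hY : yPar v = 1 := by linarith
    unfold yPar at hY
    rw [div_eq_one_iff_eq (by positivity)] at hY
    have e : 1 + ∑ k, negPart v k = ∑ k, posPart v k + (1 - ∑ k, v k) := by
      rw [sum_eq_pos_sub_neg v]; ring
    rw [e] at hY
    have h := sum_sq_le_sq_sum' (posPart v) (posPart_nonneg v)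
    have hρ0 : ∑ k, posPart v k = 0 := by
      have hγ : 0 < 1 - ∑ k, v k := by linarith
      have : (∑ k, posPart v k) * (1 - ∑ k, v k) ≤ 0 := by nlinarith
      by_contra hne
      have hpos : 0 < ∑ k, posPart v k := lt_of_le_of_ne hρ (Ne.symm hne)
      have := mul_pos hpos hγ
      linarith
    intro k
    have := (Finset.sum_eq_zero_iff_of_nonneg (fun k _ => posPart_nonneg v k)).mp hρ0 k (Finset.mem_univ k)
    have h6 : v k ≤ posPart v k := le_max_left _ _
    linarith

end Vale.Agent.Lib.P254
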