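import Vale.Agent.Lib.P254.Affine

namespace Vale.Agent.Lib.P254

open MeasureTheory Matrix

variable {n : ℕ}

/-- rank one affine change of variables -/
lemma setIntegral_image_rankOne (a b : Fin n → ℝ) (β : ℝ) (h : 1 + b ⬝ᵥ a ≠ 0)
    {K : Set (Fin n → ℝ)} (hK : MeasurableSet K) (g : (Fin n → ℝ) → ℝ) :
    ∫ y in (fun x => x + (b ⬝ᵥ x + β) • a) '' K, g y
      = |1 + b ⬝ᵥ a| * ∫ x in K, g (x + (b ⬝ᵥ x + β) • a) := by
  have hdet : (1 + Matrix.vecMulVec a b).det = 1 + b ⬝ᵥ a := by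
    rw [Matrix.vecMulVec_eq (ι := Unit), Matrix.det_one_add_replicateCol_mul_replicateRow]
  have hfun : ∀ x : Fin n → ℝ, (1 + Matrix.vecMulVec a b) *ᵥ x + β • a = x + (b ⬝ᵥ x + β) • a := by
    intro x
    rw [Matrix.add_mulVec, Matrix.one_mulVec, Matrix.vecMulVec_mulVec, add_smul, add_assoc,
      op_smul_eq_smul]
  have := setIntegral_image_affine (1 + Matrix.vecMulVec a b) (β • a) (by rw [hdet]; exact h) hK g
  simp only [hfun, hdet] at this
  exact this

/-- the standard (corner) simplex with vertices `0, e_1, ..., e_n` -/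
def stdS (n : ℕ) : Set (Fin n → ℝ) := {x | (∀ i, 0 ≤ x i) ∧ ∑ i, x i ≤ 1}

lemma stdS_isClosed : IsClosed (stdS n) := by
  have : stdS n = (⋂ i, {x : Fin n → ℝ | 0 ≤ x i}) ∩ {x | ∑ i, x i ≤ 1} := by
    ext x; simp [stdS]
  rw [this]
  refine IsClosed.inter (isClosed_iInter fun i => ?_) ?_
  · exact isClosed_le continuous_const (continuous_apply i)
  · exact isClosed_le (by fun_prop) continuous_const

lemma stdS_le_one {x : Fin n → ℝ} (hx : x ∈ stdS n) (i : Fin n) : x i ≤ 1 := by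
  have h1 : x i ≤ ∑ k, x k := Finset.single_le_sum (fun k _ => hx.1 k) (Finset.mem_univ i)
  exact h1.trans hx.2

lemma stdS_isCompact : IsCompact (stdS n) := by
  refine IsCompact.of_isClosed_subset (isCompact_Icc (a := (0 : Fin n → ℝ)) (b := 1)) stdS_isClosed ?_
  intro x hx
  exact ⟨fun i => hx.1 i, fun i => stdS_le_one hx i⟩

lemma stdS_convex : Convex ℝ (stdS n) := by
  intro x hx y hy a b ha hb hab
  refine ⟨fun i => ?_, ?_⟩
  · have := hx.1 i; have := hy.1 i
    simp only [Pi.add_apply, Pi.smul_apply, smul_eq_mul]; positivity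
  · simp only [Pi.add_apply, Pi.smul_apply, smul_eq_mul, Finset.sum_add_distrib, ← Finset.mul_sum]
    nlinarith [hx.2, hy.2]

lemma stdS_vol_pos : 0 < vol (stdS n) := by
  have hU : IsOpen {x : Fin n → ℝ | (∀ i, 0 < x i) ∧ ∑ i, x i < 1} := by
    have : {x : Fin n → ℝ | (∀ i, 0 < x i) ∧ ∑ i, x i < 1}
        = (⋂ i, {x : Fin n → ℝ | 0 < x i}) ∩ {x | ∑ i, x i < 1} := by
      ext x; simp
    rw [this]
    refine IsOpen.inter (isOpen_iInter_of_finite fun i => ?_) ?_
    · exact isOpen_lt continuous_const (continuous_apply i)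
    · exact isOpen_lt (by fun_prop) continuous_const
  have hne : {x : Fin n → ℝ | (∀ i, 0 < x i) ∧ ∑ i, x i < 1}.Nonempty := by
    refine ⟨fun _ => 1 / ((n : ℝ) + 1), fun i => by positivity, ?_⟩
    simp only [Finset.sum_const, Finset.card_univ, Fintype.card_fin, nsmul_eq_mul]
    rw [mul_one_div, div_lt_one (by positivity)]
    linarith
  have hpos := hU.measure_pos volume hne
  have hsub : {x : Fin n → ℝ | (∀ i, 0 < x i) ∧ ∑ i, x i < 1} ⊆ stdS n :=
    fun x hx => ⟨fun i => (hx.1 i).le, hx.2.le⟩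
  have hlt : volume (stdS n) < ⊤ := stdS_isCompact.measure_lt_top
  exact ENNReal.toReal_pos (lt_of_lt_of_le hpos (measure_mono hsub)).ne' hlt.ne

/-- the affine involution of the standard simplex exchanging the vertices `0` and `e_i` -/
noncomputable def swapZero (i : Fin n) (x : Fin n → ℝ) : Fin n → ℝ :=
  x + ((fun k => -1 - (Pi.single i 1 : Fin n → ℝ) k) ⬝ᵥ x + 1) • (Pi.single i 1 : Fin n → ℝ)

lemma swapZero_coef (i : Fin n) (x : Fin n → ℝ) :
    ((fun k => -1 - (Pi.single i 1 : Fin n → ℝ) k) ⬝ᵥ x + 1) = 1 - ∑ k, x k - x i := by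
  simp only [dotProduct, sub_mul, Finset.sum_sub_distrib]
  have : ∑ k, (Pi.single i 1 : Fin n → ℝ) k * x k = x i := by
    simp [Pi.single_apply]
  rw [this]
  simp only [neg_mul, one_mul, Finset.sum_neg_distrib]
  ring

lemma swapZero_apply_self (i : Fin n) (x : Fin n → ℝ) : swapZero i x i = 1 - ∑ k, x k := by
  simp only [swapZero, swapZero_coef, Pi.add_apply, Pi.smul_apply, Pi.single_eq_same, smul_eq_mul]
  ring

lemma swapZero_apply_ne (i : Fin n) (x : Fin n → ℝ) {k : Fin n} (hk : k ≠ i) :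
    swapZero i x k = x k := by
  simp only [swapZero, swapZero_coef, Pi.add_apply, Pi.smul_apply, Pi.single_eq_of_ne hk, smul_eq_mul]
  ring

lemma swapZero_sum (i : Fin n) (x : Fin n → ℝ) : ∑ k, swapZero i x k = 1 - x i := by
  simp only [swapZero, swapZero_coef, Pi.add_apply, Pi.smul_apply, smul_eq_mul,
    Finset.sum_add_distrib, ← Finset.mul_sum]
  have : ∑ k, (Pi.single i 1 : Fin n → ℝ) k = 1 := by simp
  rw [this]; ring

lemma swapZero_involutive (i : Fin n) (x : Fin n → ℝ) : swapZero i (swapZero i x) = x := by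
  funext k
  by_cases hk : k = i
  · subst hk
    rw [swapZero_apply_self, swapZero_sum]; ring
  · rw [swapZero_apply_ne _ _ hk, swapZero_apply_ne _ _ hk]

lemma swapZero_mem (i : Fin n) {x : Fin n → ℝ} (hx : x ∈ stdS n) : swapZero i x ∈ stdS n := by
  refine ⟨fun k => ?_, ?_⟩
  · by_cases hk : k = i
    · subst hk
      rw [swapZero_apply_self]; linarith [hx.2]
    · rw [swapZero_apply_ne _ _ hk]; exact hx.1 k
  · rw [swapZero_sum]; linarith [hx.1 i]

lemma swapZero_image (i : Fin n) : swapZero i '' stdS n = stdS n := by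
  ext x
  constructor
  · rintro ⟨y, hy, rfl⟩; exact swapZero_mem i hy
  · intro hx; exact ⟨swapZero i x, swapZero_mem i hx, swapZero_involutive i x⟩

lemma integral_swapZero (i : Fin n) (g : (Fin n → ℝ) → ℝ) :
    ∫ x in stdS n, g x = ∫ x in stdS n, g (swapZero i x) := by
  have hba : (fun k => -1 - (Pi.single i 1 : Fin n → ℝ) k) ⬝ᵥ (Pi.single i 1 : Fin n → ℝ) = -2 := by
    simp [dotProduct, Pi.single_apply]
    norm_num
  have h := setIntegral_image_rankOne (Pi.single i 1 : Fin n → ℝ)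
    (fun k => -1 - (Pi.single i 1 : Fin n → ℝ) k) 1 (by rw [hba]; norm_num)
    stdS_isCompact.measurableSet g
  rw [hba] at h
  have himg : (fun x : Fin n → ℝ => x + ((fun k => -1 - (Pi.single i 1 : Fin n → ℝ) k) ⬝ᵥ x + 1) •
      (Pi.single i 1 : Fin n → ℝ)) '' stdS n = stdS n := swapZero_image i
  rw [himg] at h
  rw [h]
  norm_num
  rfl

lemma stdS_integrable {g : (Fin n → ℝ) → ℝ} (hg : Continuous g) : IntegrableOn g (stdS n) volume :=
  integrableOn_of_continuous stdS_isCompact hg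

lemma stdS_m1 (i : Fin n) : ∫ x in stdS n, x i = vol (stdS n) / ((n : ℝ) + 1) := by
  have h : ∀ i : Fin n, ∫ x in stdS n, x i = vol (stdS n) - ∑ k, ∫ x in stdS n, x k := by
    intro i
    rw [integral_swapZero i]
    simp_rw [swapZero_apply_self]
    rw [integral_sub, integral_finsetSum, ← vol_eq_integral]
    · intro k _; exact stdS_integrable (by fun_prop)
    · exact stdS_integrable (by fun_prop)
    · exact stdS_integrable (by fun_prop)
  have hs : ∑ k, ∫ x in stdS n, x k = (n : ℝ) * (vol (stdS n) - ∑ k, ∫ x in stdS n, x k) := by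
    conv_lhs => rw [Finset.sum_congr rfl (fun k _ => h k)]
    simp
    ring
  rw [h i]
  have hn : (0 : ℝ) < (n : ℝ) + 1 := by positivity
  field_simp
  linarith

lemma stdS_m2_ne {i j : Fin n} (hij : i ≠ j) :
    ∫ x in stdS n, x i * x j = (∫ x in stdS n, x j) - ∑ k, ∫ x in stdS n, x k * x j := by
  rw [integral_swapZero i]
  simp_rw [swapZero_apply_self, swapZero_apply_ne i _ hij.symm]
  have : ∀ x : Fin n → ℝ, (1 - ∑ k, x k) * x j = x j - ∑ k, x k * x j := by
    intro x; rw [sub_mul, one_mul, Finset.sum_mul]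
  simp_rw [this]
  rw [integral_sub, integral_finsetSum]
  · intro k _; exact stdS_integrable (by fun_prop)
  · exact stdS_integrable (by fun_prop)
  · exact stdS_integrable (by fun_prop)

lemma homothety_image (i : Fin n) {t : ℝ} (ht0 : 0 ≤ t) (ht1 : t < 1) :
    (fun x : Fin n → ℝ => ((1 - t) • (1 : Matrix (Fin n) (Fin n) ℝ)) *ᵥ x + t • (Pi.single i 1 : Fin n → ℝ))
      '' stdS n = stdS n ∩ {x | t ≤ x i} := by
  have hfun : ∀ x : Fin n → ℝ, ((1 - t) • (1 : Matrix (Fin n) (Fin n) ℝ)) *ᵥ x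
      + t • (Pi.single i 1 : Fin n → ℝ) = (1 - t) • x + t • (Pi.single i 1 : Fin n → ℝ) := by
    intro x; rw [Matrix.smul_mulVec, Matrix.one_mulVec]
  simp_rw [hfun]
  have h1t : 0 < 1 - t := by linarith
  have hsum1 : ∑ k, (Pi.single i 1 : Fin n → ℝ) k = 1 := by simp
  ext y
  constructor
  · rintro ⟨x, hx, rfl⟩
    refine ⟨⟨fun k => ?_, ?_⟩, ?_⟩
    · have h0 := hx.1 k
      have h2 : 0 ≤ (Pi.single i 1 : Fin n → ℝ) k := by
        by_cases hk : k = i
        · subst hk; simp
        · simp [Pi.single_eq_of_ne hk]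
      simp only [Pi.add_apply, Pi.smul_apply, smul_eq_mul]
      positivity
    · simp only [Pi.add_apply, Pi.smul_apply, smul_eq_mul, Finset.sum_add_distrib, ← Finset.mul_sum, hsum1]
      nlinarith [hx.2]
    · have h0 := hx.1 i
      simp only [Set.mem_ofPred_eq, Pi.add_apply, Pi.smul_apply, smul_eq_mul, Pi.single_eq_same]
      nlinarith
  · rintro ⟨hy, hyt⟩
    simp only [Set.mem_ofPred_eq] at hyt
    refine ⟨(1 - t)⁻¹ • (y - t • (Pi.single i 1 : Fin n → ℝ)), ⟨fun k => ?_, ?_⟩, ?_⟩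
    · simp only [Pi.smul_apply, Pi.sub_apply, smul_eq_mul]
      apply mul_nonneg (by positivity)
      by_cases hk : k = i
      · subst hk; simp; linarith
      · simp [Pi.single_eq_of_ne hk]; exact hy.1 k
    · simp only [Pi.smul_apply, Pi.sub_apply, smul_eq_mul, ← Finset.mul_sum, Finset.sum_sub_distrib, hsum1]
      rw [inv_mul_le_iff₀ h1t]
      linarith [hy.2]
    · show (1 - t) • ((1 - t)⁻¹ • (y - t • (Pi.single i 1 : Fin n → ℝ))) + t • (Pi.single i 1 : Fin n → ℝ) = y
      rw [smul_smul, mul_inv_cancel₀ h1t.ne', one_smul]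
      simp

lemma stdS_trunc (i : Fin n) {t : ℝ} (ht0 : 0 ≤ t) (ht1 : t < 1) :
    ∫ x in stdS n ∩ {x | t ≤ x i}, x i ^ 2
      = (1 - t) ^ n * ((1 - t) ^ 2 * (∫ x in stdS n, x i ^ 2) + 2 * t * (1 - t) * (∫ x in stdS n, x i)
          + t ^ 2 * vol (stdS n)) := by
  have h1t : 0 < 1 - t := by linarith
  have hdet : ((1 - t) • (1 : Matrix (Fin n) (Fin n) ℝ)).det = (1 - t) ^ n := by
    rw [Matrix.det_smul, Matrix.det_one, Fintype.card_fin, mul_one]
  rw [← homothety_image i ht0 ht1, setIntegral_image_affine _ _ (by rw [hdet]; positivity)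
    stdS_isCompact.measurableSet, hdet, abs_of_pos (by positivity)]
  congr 1
  have : ∀ x : Fin n → ℝ, ((((1 - t) • (1 : Matrix (Fin n) (Fin n) ℝ)) *ᵥ x
      + t • (Pi.single i 1 : Fin n → ℝ)) i) ^ 2 = (1 - t) ^ 2 * x i ^ 2 + 2 * t * (1 - t) * x i + t ^ 2 * 1 := by
    intro x
    rw [Matrix.smul_mulVec, Matrix.one_mulVec]
    simp only [Pi.add_apply, Pi.smul_apply, smul_eq_mul, Pi.single_eq_same]
    ring
  simp_rw [this]
  rw [integral_add, integral_add, integral_const_mul, integral_const_mul, integral_const_mul,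
    ← vol_eq_integral]
  · exact stdS_integrable (by fun_prop)
  · exact stdS_integrable (by fun_prop)
  · exact stdS_integrable (by fun_prop)
  · exact stdS_integrable (by fun_prop)

end Vale.Agent.Lib.P254
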