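import Vale.Agent.Lib.P254.Simplex

namespace Vale.Agent.Lib.P254

open MeasureTheory Matrix Filter Topology

variable {n : ℕ}

lemma stdS_trunc_bound (i : Fin n) {t : ℝ} (ht0 : 0 ≤ t) :
    0 ≤ (∫ x in stdS n, x i ^ 2) - ∫ x in stdS n ∩ {x | t ≤ x i}, x i ^ 2 ∧
    (∫ x in stdS n, x i ^ 2) - ∫ x in stdS n ∩ {x | t ≤ x i}, x i ^ 2 ≤ t ^ 2 * vol (stdS n) := by
  have hA : MeasurableSet {x : Fin n → ℝ | t ≤ x i} :=
    measurableSet_le measurable_const (measurable_pi_apply i)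
  have hint : IntegrableOn (fun x : Fin n → ℝ => x i ^ 2) (stdS n) volume :=
    stdS_integrable (by fun_prop)
  have hsplit := integral_inter_add_sdiff (μ := volume) hA hint
  have hD : MeasurableSet (stdS n \ {x : Fin n → ℝ | t ≤ x i}) :=
    stdS_isCompact.measurableSet.diff hA
  have hfin : volume (stdS n \ {x : Fin n → ℝ | t ≤ x i}) ≠ ⊤ :=
    (lt_of_le_of_lt (measure_mono Set.sdiff_subset) stdS_isCompact.measure_lt_top).ne
  have h0 : 0 ≤ ∫ x in stdS n \ {x | t ≤ x i}, x i ^ 2 :=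
    setIntegral_nonneg hD (fun x _ => by positivity)
  have h1 : ∫ x in stdS n \ {x | t ≤ x i}, x i ^ 2 ≤ ∫ _x in stdS n \ {x : Fin n → ℝ | t ≤ x i}, t ^ 2 := by
    refine setIntegral_mono_on (hint.mono_set Set.sdiff_subset) ?_ hD ?_
    · exact integrableOn_const hfin
    · intro x hx
      have hx0 := hx.1.1 i
      have hx1 : x i < t := by simpa using hx.2
      nlinarith
  have h2 : ∫ _x in stdS n \ {x : Fin n → ℝ | t ≤ x i}, t ^ 2 ≤ t ^ 2 * vol (stdS n) := by
    rw [setIntegral_const, smul_eq_mul, mul_comm]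
    apply mul_le_mul_of_nonneg_left _ (by positivity)
    exact ENNReal.toReal_mono stdS_isCompact.measure_lt_top.ne (measure_mono Set.sdiff_subset)
  constructor <;> linarith

lemma stdS_m2_self_aux (i : Fin n) :
    ((n : ℝ) + 2) * (∫ x in stdS n, x i ^ 2) = 2 * ∫ x in stdS n, x i := by
  set a := ∫ x in stdS n, x i ^ 2 with ha
  set m := ∫ x in stdS n, x i with hm
  set V := vol (stdS n) with hV
  have hbound : ∀ t : ℝ, 0 < t → t < 1 →
      0 ≤ a - (1 - t) ^ n * ((1 - t) ^ 2 * a + 2 * t * (1 - t) * m + t ^ 2 * V) ∧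
      a - (1 - t) ^ n * ((1 - t) ^ 2 * a + 2 * t * (1 - t) * m + t ^ 2 * V) ≤ t ^ 2 * V := by
    intro t h0 h1
    have := stdS_trunc_bound i h0.le
    rw [stdS_trunc i h0.le h1] at this
    exact this
  have hderiv : HasDerivAt (fun t : ℝ => a - (1 - t) ^ n * ((1 - t) ^ 2 * a + 2 * t * (1 - t) * m + t ^ 2 * V))
      (((n : ℝ) + 2) * a - 2 * m) 0 := by
    have e1 : HasDerivAt (fun t : ℝ => 1 - t) (-1) 0 := by
      simpa using (hasDerivAt_id (0 : ℝ)).const_sub 1
    have e2 := e1.pow n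
    have e3 := (e1.pow 2).mul_const a
    have e4 := (((hasDerivAt_id (0 : ℝ)).const_mul 2).mul e1).mul_const m
    have e5 := ((hasDerivAt_id (0 : ℝ)).pow 2).mul_const V
    have e6 := (e2.mul ((e3.add e4).add e5)).const_sub a
    refine HasDerivAt.congr_deriv (f' := _) e6 ?_
    simp
    ring
  have h1 := hderiv.tendsto_slope_zero_right
  have h2 : Tendsto (fun t : ℝ => t⁻¹ • ((a - (1 - (0 + t)) ^ n * ((1 - (0 + t)) ^ 2 * a
      + 2 * (0 + t) * (1 - (0 + t)) * m + (0 + t) ^ 2 * V))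
      - (a - (1 - (0:ℝ)) ^ n * ((1 - (0:ℝ)) ^ 2 * a + 2 * (0:ℝ) * (1 - (0:ℝ)) * m + (0:ℝ) ^ 2 * V))))
      (𝓝[>] 0) (𝓝 0) := by
    have hup : Tendsto (fun t : ℝ => t * V) (𝓝[>] 0) (𝓝 0) := by
      have : Tendsto (fun t : ℝ => t * V) (𝓝 0) (𝓝 (0 * V)) := (continuous_id.mul continuous_const).tendsto 0
      rw [zero_mul] at this
      exact this.mono_left nhdsWithin_le_nhds
    refine tendsto_of_tendsto_of_tendsto_of_le_of_le' tendsto_const_nhds hup ?_ ?_
    · filter_upwards [Ioo_mem_nhdsGT (show (0:ℝ) < 1 by norm_num)] with t ht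
      have := (hbound t ht.1 ht.2).1
      simp only [zero_add, sub_zero, one_pow, one_mul, mul_zero, zero_mul, add_zero, smul_eq_mul]
      have ht' : 0 < t⁻¹ := inv_pos.mpr ht.1
      norm_num
      apply mul_nonneg ht'.le this
    · filter_upwards [Ioo_mem_nhdsGT (show (0:ℝ) < 1 by norm_num)] with t ht
      have := (hbound t ht.1 ht.2).2
      simp only [zero_add, sub_zero, one_pow, one_mul, mul_zero, zero_mul, add_zero, smul_eq_mul]
      have ht' : 0 < t := ht.1
      norm_num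
      rw [inv_mul_le_iff₀ ht']
      nlinarith
  have := tendsto_nhds_unique h1 h2
  linarith

lemma stdS_m2_self (i : Fin n) :
    ∫ x in stdS n, x i * x i = 2 * (vol (stdS n) / (((n : ℝ) + 1) * ((n : ℝ) + 2))) := by
  have h := stdS_m2_self_aux i
  rw [stdS_m1] at h
  have e : ∀ x : Fin n → ℝ, x i * x i = x i ^ 2 := fun x => by ring
  simp_rw [e]
  have hn1 : (0 : ℝ) < (n : ℝ) + 1 := by positivity
  have hn2 : (0 : ℝ) < (n : ℝ) + 2 := by positivity
  field_simp
  field_simp at h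
  linarith

lemma stdS_m2_off {i j : Fin n} (hij : i ≠ j) :
    ∫ x in stdS n, x i * x j = vol (stdS n) / (((n : ℝ) + 1) * ((n : ℝ) + 2)) := by
  set c := (∫ x in stdS n, x j) - ∑ k, ∫ x in stdS n, x k * x j with hc
  have h1 : ∀ k, k ≠ j → ∫ x in stdS n, x k * x j = c := fun k hk => stdS_m2_ne hk
  have h2 : ∑ k, ∫ x in stdS n, x k * x j
      = (n : ℝ) * c + ((∫ x in stdS n, x j * x j) - c) := by
    have : ∀ k ∈ Finset.univ, ∫ x in stdS n, x k * x j
        = c + (if k = j then (∫ x in stdS n, x j * x j) - c else 0) := by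
      intro k _
      by_cases hk : k = j
      · subst hk; simp
      · simp [hk, h1 k hk]
    rw [Finset.sum_congr rfl this, Finset.sum_add_distrib]
    simp
  rw [h1 i hij]
  rw [h2, stdS_m1, stdS_m2_self] at hc
  have hn0 : (0 : ℝ) < (n : ℝ) := by
    have : 0 < n := Fin.pos i
    exact_mod_cast this
  have hn1 : (0 : ℝ) < (n : ℝ) + 1 := by positivity
  have hn2 : (0 : ℝ) < (n : ℝ) + 2 := by positivity
  have h3 : (n : ℝ) * c = (n : ℝ) * (vol (stdS n) / (((n : ℝ) + 1) * ((n : ℝ) + 2))) := by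
    have : (n : ℝ) * c = vol (stdS n) / ((n : ℝ) + 1) - 2 * (vol (stdS n) / (((n : ℝ) + 1) * ((n : ℝ) + 2))) := by
      linarith
    rw [this]
    field_simp
    ring
  exact mul_left_cancel₀ hn0.ne' h3

lemma stdS_m2 (i j : Fin n) :
    ∫ x in stdS n, x i * x j
      = vol (stdS n) / (((n : ℝ) + 1) * ((n : ℝ) + 2)) * (1 + if i = j then 1 else 0) := by
  by_cases hij : i = j
  · subst hij
    rw [stdS_m2_self]; simp; ring
  · rw [stdS_m2_off hij]; simp [hij]

end Vale.Agent.Lib.P254
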